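import Vale.Agent.P371.Main

theorem Vale.Agent.Results.P371.SharpLT.result (γ : ℝ) (h1 : 1 / 2 < γ) (h2 : γ < 3 / 2) (m : ℕ)
    (hm : 1 ≤ m) :
    Vale.Agent.P371.LT γ m = ENNReal.ofReal (Vale.Agent.P371.Lone γ) ∧
      Vale.Agent.P371.LT γ m = Vale.Agent.P371.LT γ 1 :=
  ⟨Vale.Agent.P371.LT_eq h1 h2 hm,
    (Vale.Agent.P371.LT_eq h1 h2 hm).trans (Vale.Agent.P371.LT_eq h1 h2 le_rfl).symm⟩
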